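import Vale.Agent.helper5.FoulkesDefs
import Vale.Agent.helper5.FoulkesHW

namespace Vale.Agent.Results.P181.StableInjective

open Vale.Agent.helper5.Foulkes

/-- The Foulkes-Howe map on `V = ℂ^n`, written in the monomial bases, kills no vector involving a
basis monomial in which some letter occurs at least `a * b - b` times; and for every weight `lam`
with a coordinate at least `a * b - b`, highest weight vectors of weight `lam` in
`Sym^a (Sym^b V)` are at most as many (in dimension) as in `Sym^b (Sym^a V)`. -/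
theorem result (n a b : ℕ) :
    ∃ (Ψ : (Sym (Sym (Fin n) b) a →₀ ℂ) →ₗ[ℂ] (Sym (Sym (Fin n) a) b →₀ ℂ))
      (E : Fin n → Fin n → (Sym (Sym (Fin n) b) a →₀ ℂ) →ₗ[ℂ] (Sym (Sym (Fin n) b) a →₀ ℂ))
      (E' : Fin n → Fin n → (Sym (Sym (Fin n) a) b →₀ ℂ) →ₗ[ℂ] (Sym (Sym (Fin n) a) b →₀ ℂ)),
      IsFoulkesHowe Ψ ∧ (∀ x y, IsRaising x y (E x y)) ∧ (∀ x y, IsRaising x y (E' x y)) ∧
      (∀ f, Ψ f = 0 → ∀ s ∈ f.support, ∀ i, letterCount s i + b < a * b) ∧
      ∀ (lam : Fin n → ℕ) (i₀ : Fin n), a * b ≤ lam i₀ + b →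
        Module.finrank ℂ (hwSpace E lam) ≤ Module.finrank ℂ (hwSpace E' lam) := by
  obtain ⟨Ψ, hΨ⟩ := exists_foulkesHowe (ι := Fin n) (a := a) (b := b)
  choose E hE using fun x y : Fin n => exists_raising (ι := Fin n) (a := a) (b := b) x y
  choose E' hE' using fun x y : Fin n => exists_raising (ι := Fin n) (a := b) (b := a) x y
  refine ⟨Ψ, E, E', hΨ, hE, hE', ?_, ?_⟩
  · intro f hf s hs i
    by_contra hlt
    exact (Finsupp.mem_support_iff.mp hs) (kernel_support hΨ f hf s i (by omega))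
  · intro lam i₀ h
    exact hw_inequality E E' hE hE' lam i₀ h

end Vale.Agent.Results.P181.StableInjective
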